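import Vale.Agent.P125.Char.Conv_A
import Vale.Agent.P125.Char.Back2

set_option linter.unusedSectionVars false
set_option linter.unusedVariables false

/-! # P125 three space project: the trivial `L_2` bound -/

namespace Vale.Agent.P125.TS

open Vale.Agent.P125.Dich Vale.Agent.P125.Char
open scoped BigOperators

variable {S M : Type} [Fintype S] [Fintype M]

private lemma cs_step (a s Q n : ℝ) (hn : 0 ≤ n) (hQ : 0 ≤ Q) (h : s ^ 2 ≤ n * Q) :
    (a + s) ^ 2 ≤ (n + 1) * (a ^ 2 + Q) := by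
  rcases hn.eq_or_lt with h0 | h0
  · rw [← h0, zero_mul] at h
    have hs : s = 0 := by
      have : s ^ 2 = 0 := le_antisymm h (sq_nonneg s)
      exact pow_eq_zero_iff (two_ne_zero) |>.1 this
    rw [← h0, hs]
    nlinarith
  · have key : n * ((n + 1) * (a ^ 2 + Q) - (a + s) ^ 2)
        = (n * a - s) ^ 2 + (n + 1) * (n * Q - s ^ 2) := by ring
    have h1 : 0 ≤ n * ((n + 1) * (a ^ 2 + Q) - (a + s) ^ 2) := by
      rw [key]
      have : 0 ≤ (n + 1) * (n * Q - s ^ 2) := mul_nonneg (by linarith) (by linarith)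
      nlinarith [sq_nonneg (n * a - s)]
    have h2 := (mul_nonneg_iff_of_pos_left h0).1 h1
    linarith

/-- Cauchy-Schwarz for a list: `‖sum‖^2 ≤ length * sum of squares` -/
lemma norm_sm_sq_le {X : Type*} [NormedAddCommGroup X] (ω : M → X) (l : List M) :
    ‖sm ω l‖ ^ 2 ≤ (l.length : ℝ) * (l.map (fun m => ‖ω m‖ ^ 2)).sum := by
  induction l with
  | nil => simp [sm]
  | cons m l ih =>
    have hQ : 0 ≤ (l.map (fun m => ‖ω m‖ ^ 2)).sum := by
      apply List.sum_nonneg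
      intro x hx
      obtain ⟨y, _, rfl⟩ := List.mem_map.1 hx
      positivity
    have h1 : sm ω (m :: l) = ω m + sm ω l := by simp [sm]
    have h2 : ‖sm ω (m :: l)‖ ≤ ‖ω m‖ + ‖sm ω l‖ := by
      rw [h1]
      exact norm_add_le _ _
    have h3 : ‖sm ω (m :: l)‖ ^ 2 ≤ (‖ω m‖ + ‖sm ω l‖) ^ 2 :=
      pow_le_pow_left₀ (norm_nonneg _) h2 2
    have h4 := cs_step ‖ω m‖ ‖sm ω l‖ _ (l.length : ℝ) (Nat.cast_nonneg _) hQ ih
    refine h3.trans (h4.trans (le_of_eq ?_))
    simp only [List.length_cons, List.map_cons, List.sum_cons]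
    push_cast
    ring

/-- the trivial bound for mark functions (no antisymmetry needed): use `norm_sm_sq_le`,
`E_mono`, `E_const_mul` and `E_sum_marks` -/
theorem E_sm_sq_le {X : Type*} [NormedAddCommGroup X] (C : MChain S M) (ω : M → X) (b : ℕ) :
    C.E b (fun l => ‖sm ω l‖ ^ 2) ≤ (b : ℝ) ^ 2 * C.E 1 (fun l => ‖sm ω l‖ ^ 2) := by
  have h1 : C.E b (fun l => ‖sm ω l‖ ^ 2)
      ≤ C.E b (fun l => (b : ℝ) * (l.map (fun m => ‖ω m‖ ^ 2)).sum) := by
    apply E_mono
    intro l hl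
    have := norm_sm_sq_le ω l
    rwa [hl] at this
  have h2 : C.E 1 (fun l => (l.map (fun m => ‖ω m‖ ^ 2)).sum)
      = C.E 1 (fun l => ‖sm ω l‖ ^ 2) := by
    apply E_congr
    intro l hl
    obtain ⟨m, rfl⟩ := List.length_eq_one_iff.1 hl
    simp [sm]
  rw [E_const_mul, E_sum_marks, h2] at h1
  calc C.E b (fun l => ‖sm ω l‖ ^ 2) ≤ _ := h1
    _ = (b : ℝ) ^ 2 * C.E 1 (fun l => ‖sm ω l‖ ^ 2) := by ring

/-- the trivial bound for functions on ordinary chains (apply `E_sm_sq_le` to `backChain`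
and rewrite with `back_E`) -/
theorem hFun_triv (X : Type*) [NormedAddCommGroup X] (b : ℕ) : HFun X b b := by
  intro S _ _ μ P hc f
  obtain ⟨h0, h1, h2, h3, h4⟩ := hc
  have key := E_sm_sq_le (backChain μ P h0 h1 h2 h3 h4) (fun m : S × S => f m.2 - f m.1) b
  rw [back_E μ P h0 h1 h2 h3 h4 f b (fun u => ‖u‖ ^ 2),
    back_E μ P h0 h1 h2 h3 h4 f 1 (fun u => ‖u‖ ^ 2), pow_one] at key
  exact key

end Vale.Agent.P125.TS
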