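import Vale.Agent.P125.TS.Triv

set_option linter.unusedSectionVars false
set_option linter.unusedVariables false

/-! # P125 three space project: the combination for mark functions -/

namespace Vale.Agent.P125.TS

open Vale.Agent.P125.Dich Vale.Agent.P125.Char
open scoped BigOperators

variable {S M : Type} [Fintype S] [Fintype M]

/-- MARK LEVEL COMBINATION.  Let `ω = y + z` on a marked chain, `y` antisymmetric with values
in `Y`.  Then
`E_b ‖sm ω‖^2 ≤ 4 A2^2 E_1 ‖sm ω‖^2 + (4 A2^2 + 2 b^2) E_1 ‖sm z‖^2`.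
(`‖u+v‖^2 ≤ 2‖u‖^2 + 2‖v‖^2` twice, `HMark Y b A2` for `y`, `E_sm_sq_le` for `z`.) -/
lemma comb_marks (X : Type*) [NormedAddCommGroup X] [NormedSpace ℝ X]
    (Y : Submodule ℝ X) (b : ℕ) (A2 : ℝ) (h2 : HMark Y b A2)
    (C : MChain S M) (ω : M → X) (y : M → Y) (z : M → X)
    (hyz : ∀ m, ω m = (y m : X) + z m) (hy : ∀ m, y (C.inv m) = - y m) :
    C.E b (fun l => ‖sm ω l‖ ^ 2) ≤
      4 * A2 ^ 2 * C.E 1 (fun l => ‖sm ω l‖ ^ 2)
        + (4 * A2 ^ 2 + 2 * (b : ℝ) ^ 2) * C.E 1 (fun l => ‖sm z l‖ ^ 2) := by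
  have hsm : ∀ l : List M, sm ω l = ((sm y l : Y) : X) + sm z l := by
    intro l
    induction l with
    | nil => simp [sm]
    | cons m l ih =>
      have a1 : sm ω (m :: l) = ω m + sm ω l := by simp [sm]
      have a2 : sm y (m :: l) = y m + sm y l := by simp [sm]
      have a3 : sm z (m :: l) = z m + sm z l := by simp [sm]
      rw [a1, a2, a3, ih, hyz m, Submodule.coe_add]
      abel
  have sq : ∀ u v : X, ‖u + v‖ ^ 2 ≤ 2 * ‖u‖ ^ 2 + 2 * ‖v‖ ^ 2 := by
    intro u v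
    have h1 := norm_add_le u v
    have h0 := norm_nonneg (u + v)
    nlinarith [sq_nonneg (‖u‖ - ‖v‖), norm_nonneg u, norm_nonneg v]
  have sq' : ∀ u v : X, ‖u - v‖ ^ 2 ≤ 2 * ‖u‖ ^ 2 + 2 * ‖v‖ ^ 2 := by
    intro u v
    have := sq u (-v)
    simpa [sub_eq_add_neg] using this
  have s1 : C.E b (fun l => ‖sm ω l‖ ^ 2)
      ≤ 2 * C.E b (fun l => ‖sm y l‖ ^ 2) + 2 * C.E b (fun l => ‖sm z l‖ ^ 2) := by
    rw [← E_const_mul, ← E_const_mul, ← E_add]
    refine E_mono C b _ _ ?_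
    intro l _
    rw [hsm l]
    have := sq ((sm y l : Y) : X) (sm z l)
    simpa only [Submodule.coe_norm] using this
  have s2 : C.E 1 (fun l => ‖sm y l‖ ^ 2)
      ≤ 2 * C.E 1 (fun l => ‖sm ω l‖ ^ 2) + 2 * C.E 1 (fun l => ‖sm z l‖ ^ 2) := by
    rw [← E_const_mul, ← E_const_mul, ← E_add]
    refine E_mono C 1 _ _ ?_
    intro l _
    have e : ((sm y l : Y) : X) = sm ω l - sm z l := by
      rw [hsm l]; abel
    have := sq' (sm ω l) (sm z l)
    rw [← e] at this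
    simpa only [Submodule.coe_norm] using this
  have s3 := h2 S M C y hy
  have s4 := E_sm_sq_le C z b
  have hA : 0 ≤ A2 ^ 2 := by positivity
  have s5 := mul_le_mul_of_nonneg_left s2 hA
  nlinarith

end Vale.Agent.P125.TS
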