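import Vale.Agent.P125.TS.Comb_A
import Vale.Agent.P125.TS.Comb_B
import Vale.Agent.P125.Dich.Iter

set_option linter.unusedSectionVars false
set_option linter.unusedVariables false

/-! # P125 three space project: combining the subspace and the quotient -/

namespace Vale.Agent.P125.TS

open Vale.Agent.P125.Dich Vale.Agent.P125.Char
open scoped BigOperators

/-- COMBINATION.  If `X ⧸ Y` satisfies the `L_2` inequality at time `t` with constant `A1` and `Y`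
satisfies it (for mark functions) at time `t'` with constant `A2`, then `X` satisfies it at time
`t * t'` with the displayed constant. -/
theorem comb (X : Type*) [NormedAddCommGroup X] [NormedSpace ℝ X]
    (Y : Submodule ℝ X) [IsClosed (Y : Set X)] (t t' : ℕ) (A1 A2 : ℝ)
    (h1 : HFun (X ⧸ Y) t A1) (h2 : HMark Y t' A2) :
    ∀ (S : Type) [Fintype S] [DecidableEq S] (μ : S → ℝ) (P : Matrix S S ℝ), IsChain μ P →
    ∀ f : S → X,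
      ∑ i, ∑ j, μ i * (P ^ (t * t')) i j * ‖f j - f i‖ ^ 2 ≤
        (4 * A2 ^ 2 * (t : ℝ) ^ 2 + 16 * A2 ^ 2 * A1 ^ 2 + 8 * (t' : ℝ) ^ 2 * A1 ^ 2) *
          ∑ i, ∑ j, μ i * P i j * ‖f j - f i‖ ^ 2 := by
  intro S _ _ μ P hP f
  have hR : IsChain μ (P ^ t) := isChain_pow hP t
  obtain ⟨r0, r1, r2, r3, r4⟩ := hR
  obtain ⟨p0, p1, p2, p3, p4⟩ := hP
  set C := backChain μ (P ^ t) r0 r1 r2 r3 r4 with hC
  set ω : S × S → X := fun m => f m.2 - f m.1 with hω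
  set g : S → X ⧸ Y := fun i => Submodule.Quotient.mk (f i) with hg
  set E1 : ℝ := ∑ i, ∑ j, μ i * P i j * ‖f j - f i‖ ^ 2 with hE1
  have hinv : ∀ m, C.inv m = Prod.swap m := fun _ => rfl
  have hωa : ∀ m, ω (C.inv m) = - ω m := by
    intro m
    rw [hinv]
    simp [hω]
  obtain ⟨y, z, hyz, hy, hz, hzn⟩ := split_marks X Y C.inv C.inv_inv ω hωa
  have key := comb_marks X Y t' A2 h2 C ω y z hyz hy
  have e1 : C.E t' (fun l => ‖sm ω l‖ ^ 2)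
      = ∑ i, ∑ j, μ i * ((P ^ t) ^ t') i j * ‖f j - f i‖ ^ 2 :=
    back_E μ (P ^ t) r0 r1 r2 r3 r4 f t' (fun u => ‖u‖ ^ 2)
  have e2 : C.E 1 (fun l => ‖sm ω l‖ ^ 2)
      = ∑ i, ∑ j, μ i * ((P ^ t) ^ 1) i j * ‖f j - f i‖ ^ 2 :=
    back_E μ (P ^ t) r0 r1 r2 r3 r4 f 1 (fun u => ‖u‖ ^ 2)
  have e3 : C.E 1 (fun l => ‖sm (fun m : S × S => g m.2 - g m.1) l‖ ^ 2)
      = ∑ i, ∑ j, μ i * ((P ^ t) ^ 1) i j * ‖g j - g i‖ ^ 2 :=
    back_E μ (P ^ t) r0 r1 r2 r3 r4 g 1 (fun u => ‖u‖ ^ 2)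
  rw [pow_one] at e2 e3
  rw [← pow_mul] at e1
  have tr : ∑ i, ∑ j, μ i * (P ^ t) i j * ‖f j - f i‖ ^ 2 ≤ (t : ℝ) ^ 2 * E1 :=
    hFun_triv X t S μ P ⟨p0, p1, p2, p3, p4⟩ f
  have q1 : ∑ i, ∑ j, μ i * (P ^ t) i j * ‖g j - g i‖ ^ 2
      ≤ A1 ^ 2 * ∑ i, ∑ j, μ i * P i j * ‖g j - g i‖ ^ 2 :=
    h1 S μ P ⟨p0, p1, p2, p3, p4⟩ g
  have q2 : ∑ i, ∑ j, μ i * P i j * ‖g j - g i‖ ^ 2 ≤ E1 := by
    refine Finset.sum_le_sum fun i _ => Finset.sum_le_sum fun j _ => ?_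
    refine mul_le_mul_of_nonneg_left ?_ (mul_nonneg (p0 i) (p2 i j))
    have : g j - g i = (Submodule.Quotient.mk (f j - f i) : X ⧸ Y) := by
      simp [hg, Submodule.Quotient.mk_sub]
    rw [this]
    exact pow_le_pow_left₀ (norm_nonneg _) (Submodule.Quotient.norm_mk_le Y _) 2
  have q3 : C.E 1 (fun l => ‖sm z l‖ ^ 2)
      ≤ 4 * C.E 1 (fun l => ‖sm (fun m : S × S => g m.2 - g m.1) l‖ ^ 2) := by
    rw [← E_const_mul]
    refine E_mono C 1 _ _ ?_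
    intro l hl
    obtain ⟨m, rfl⟩ := List.length_eq_one_iff.mp hl
    have a1 : sm z [m] = z m := by simp [sm]
    have a2 : sm (fun m : S × S => g m.2 - g m.1) [m] = g m.2 - g m.1 := by simp [sm]
    have a3 : g m.2 - g m.1 = (Submodule.Quotient.mk (ω m) : X ⧸ Y) := by
      simp [hg, hω, Submodule.Quotient.mk_sub]
    rw [a1, a2, a3]
    have := hzn m
    have h0 : 0 ≤ ‖z m‖ := norm_nonneg _
    nlinarith [norm_nonneg (Submodule.Quotient.mk (ω m) : X ⧸ Y)]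
  have hA1 : 0 ≤ A1 ^ 2 := by positivity
  have hA2 : 0 ≤ A2 ^ 2 := by positivity
  have q4 : C.E 1 (fun l => ‖sm z l‖ ^ 2) ≤ 4 * (A1 ^ 2 * E1) := by
    refine q3.trans ?_
    rw [e3]
    have := q1.trans (mul_le_mul_of_nonneg_left q2 hA1)
    linarith
  rw [e1, e2] at key
  have hc : 0 ≤ 4 * A2 ^ 2 + 2 * (t' : ℝ) ^ 2 := by positivity
  calc ∑ i, ∑ j, μ i * (P ^ (t * t')) i j * ‖f j - f i‖ ^ 2
      ≤ 4 * A2 ^ 2 * ∑ i, ∑ j, μ i * (P ^ t) i j * ‖f j - f i‖ ^ 2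
        + (4 * A2 ^ 2 + 2 * (t' : ℝ) ^ 2) * C.E 1 (fun l => ‖sm z l‖ ^ 2) := key
    _ ≤ 4 * A2 ^ 2 * ((t : ℝ) ^ 2 * E1)
        + (4 * A2 ^ 2 + 2 * (t' : ℝ) ^ 2) * (4 * (A1 ^ 2 * E1)) := by
        have b1 := mul_le_mul_of_nonneg_left tr (by positivity : 0 ≤ 4 * A2 ^ 2)
        have b2 := mul_le_mul_of_nonneg_left q4 hc
        linarith
    _ = (4 * A2 ^ 2 * (t : ℝ) ^ 2 + 16 * A2 ^ 2 * A1 ^ 2 + 8 * (t' : ℝ) ^ 2 * A1 ^ 2) * E1 := by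
        ring

end Vale.Agent.P125.TS
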