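import Vale.Agent.P125.Char.Quot

set_option linter.unusedSectionVars false
set_option linter.unusedVariables false

/-! # P125 three space project: splitting an antisymmetric family along a closed subspace -/

namespace Vale.Agent.P125.TS

open Vale.Agent.P125.Dich Vale.Agent.P125.Char
open scoped BigOperators

/-- SPLITTING.  An antisymmetric family `ω` of vectors of `X`, indexed by a type with an
involution, splits as `ω = y + z` with `y` antisymmetric with values in `Y` and `z` antisymmetric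
with `‖z m‖ ≤ 2 ‖mk (ω m)‖`.  (Lift `mk (ω m)` to `z0 m` with `exists_lift_quot`, `ε = 1`, put
`z m = (1/2) • (z0 m - z0 (inv m))`, `y m = ω m - z m`.) -/
lemma split_marks (X : Type*) [NormedAddCommGroup X] [NormedSpace ℝ X]
    (Y : Submodule ℝ X) [IsClosed (Y : Set X)] {M : Type} (inv : M → M)
    (hinv : ∀ m, inv (inv m) = m) (ω : M → X) (hω : ∀ m, ω (inv m) = - ω m) :
    ∃ (y : M → Y) (z : M → X), (∀ m, ω m = (y m : X) + z m) ∧ (∀ m, y (inv m) = - y m) ∧
      (∀ m, z (inv m) = - z m) ∧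
      (∀ m, ‖z m‖ ≤ 2 * ‖(Submodule.Quotient.mk (ω m) : X ⧸ Y)‖) := by
  choose w hw1 hw2 using fun m : M =>
    exists_lift_quot X Y 1 one_pos (Submodule.Quotient.mk (ω m) : X ⧸ Y)
  have hmkneg : ∀ m, (Submodule.Quotient.mk (ω (inv m)) : X ⧸ Y)
      = - (Submodule.Quotient.mk (ω m) : X ⧸ Y) := by
    intro m
    rw [hω m, Submodule.Quotient.mk_neg]
  have hzanti : ∀ m, (1 / 2 : ℝ) • (w (inv m) - w (inv (inv m)))
      = - ((1 / 2 : ℝ) • (w m - w (inv m))) := by
    intro m
    rw [hinv m, ← smul_neg, neg_sub]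
  have hmk : ∀ m, (Submodule.Quotient.mk ((1 / 2 : ℝ) • (w m - w (inv m))) : X ⧸ Y)
      = Submodule.Quotient.mk (ω m) := by
    intro m
    rw [Submodule.Quotient.mk_smul, Submodule.Quotient.mk_sub, hw1, hw1, hmkneg m]
    have h5 : (Submodule.Quotient.mk (ω m) : X ⧸ Y) - - (Submodule.Quotient.mk (ω m) : X ⧸ Y)
        = (2 : ℝ) • (Submodule.Quotient.mk (ω m) : X ⧸ Y) := by
      rw [two_smul]; abel
    rw [h5, smul_smul]
    norm_num
  have hmem : ∀ m, ω m - (1 / 2 : ℝ) • (w m - w (inv m)) ∈ Y := by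
    intro m
    exact (Submodule.Quotient.eq Y).1 (hmk m).symm
  have hnorm : ∀ m, ‖(1 / 2 : ℝ) • (w m - w (inv m))‖
      ≤ 2 * ‖(Submodule.Quotient.mk (ω m) : X ⧸ Y)‖ := by
    intro m
    have e1 := hw2 m
    have e2 := hw2 (inv m)
    rw [hmkneg m, norm_neg] at e2
    have e3 := norm_sub_le (w m) (w (inv m))
    rw [norm_smul]
    have e4 : ‖(1 / 2 : ℝ)‖ = 1 / 2 := by norm_num
    rw [e4]
    linarith
  refine ⟨fun m => ⟨ω m - (1 / 2 : ℝ) • (w m - w (inv m)), hmem m⟩,
    fun m => (1 / 2 : ℝ) • (w m - w (inv m)), ?_, ?_, ?_, hnorm⟩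
  · intro m
    simp
  · intro m
    apply Subtype.ext
    simp only [Submodule.coe_neg]
    rw [hzanti m, hω m]
    abel
  · intro m
    exact hzanti m

end Vale.Agent.P125.TS
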