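import Vale.Agent.P125.TS.Small
import Vale.Agent.P125.TS.Comb
import Vale.Agent.P125.Dich.Main

set_option linter.unusedSectionVars false
set_option linter.unusedVariables false

/-! # P125 three space project: nontrivial Markov type is a three space property -/

namespace Vale.Agent.P125.TS

open Vale.Agent.P125.Dich Vale.Agent.P125.Char
open scoped BigOperators

theorem three_space (X : Type*) [NormedAddCommGroup X] [NormedSpace ℝ X]
    (Y : Submodule ℝ X) [IsClosed (Y : Set X)] (p1 K1 p2 K2 : ℝ)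
    (hp1 : 1 < p1) (hK1 : 0 ≤ K1) (h1 : Vale.Agent.P125.HasMarkovTypeWith Y p1 K1)
    (hp2 : 1 < p2) (hK2 : 0 ≤ K2) (h2 : Vale.Agent.P125.HasMarkovTypeWith (X ⧸ Y) p2 K2) :
    ∃ p K : ℝ, 1 < p ∧ 0 ≤ K ∧ Vale.Agent.P125.HasMarkovTypeWith X p K := by
  obtain ⟨t, ht, hq⟩ := small_hFun (X ⧸ Y) p2 K2 hp2 hK2 h2 (1 / 8) (by norm_num)
  obtain ⟨t', ht', hs⟩ := small_hFun Y p1 K1 hp1 hK1 h1 (1 / 8) (by norm_num)
  have hm : HMark Y t' (1 / 8 * t') := hMark_of_hFun Y t' _ hs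
  have hc := comb X Y t t' _ _ hq hm
  refine dichotomy X (t * t') (1 / 5) ?_ (by norm_num) ?_
  · nlinarith
  · intro S _ _ μ P h0 h1 h2 h3 h4 f
    have := hc S μ P ⟨h0, h1, h2, h3, h4⟩ f
    have hE : 0 ≤ ∑ i, ∑ j, μ i * P i j * ‖f j - f i‖ ^ 2 :=
      Finset.sum_nonneg fun i _ => Finset.sum_nonneg fun j _ =>
        mul_nonneg (mul_nonneg (h0 i) (h2 i j)) (by positivity)
    refine this.trans (mul_le_mul_of_nonneg_right ?_ hE)
    push_cast
    have : 0 ≤ ((t : ℝ) * t') ^ 2 := by positivity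
    nlinarith
end Vale.Agent.P125.TS
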