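import Vale.Agent.P125.Char.Main
import Vale.Agent.P125.Dich.Iter

set_option linter.unusedSectionVars false
set_option linter.unusedVariables false

/-! # P125 three space project: arbitrarily small `L_2` constants from nontrivial Markov type -/

namespace Vale.Agent.P125.TS

open Vale.Agent.P125.Dich
open scoped BigOperators

/-- the constant in `HFun` may be increased -/
lemma hFun_mono (Z : Type*) [NormedAddCommGroup Z] (b : ℕ) (A A' : ℝ) (h0 : 0 ≤ A) (hA : A ≤ A')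
    (h : HFun Z b A) : HFun Z b A' := by
  intro S _ _ μ P hP f
  have hE : 0 ≤ ∑ i, ∑ j, μ i * P i j * ‖f j - f i‖ ^ 2 :=
    Finset.sum_nonneg fun i _ => Finset.sum_nonneg fun j _ =>
      mul_nonneg (mul_nonneg (hP.1 i) (hP.2.2.1 i j)) (sq_nonneg _)
  refine le_trans (h S μ P hP f) (mul_le_mul_of_nonneg_right ?_ hE)
  exact pow_le_pow_left₀ h0 hA 2

/-- Markov type `p > 1` gives, for every `α > 0`, a time `t ≥ 2` at which the `L_2` inequality
holds with the constant `α * t`.  (Take `t0, a` from `strict_of_hasMarkovType`, put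
`A = sqrt (max a 0) * t0`, use `hFun_pow`, and choose `k ≥ 1` with `sqrt (max a 0) ^ k ≤ α`.) -/
theorem small_hFun (Z : Type*) [NormedAddCommGroup Z] [NormedSpace ℝ Z] (p K : ℝ)
    (hp : 1 < p) (hK : 0 ≤ K) (h : Vale.Agent.P125.HasMarkovTypeWith Z p K)
    (α : ℝ) (hα : 0 < α) :
    ∃ t : ℕ, 2 ≤ t ∧ HFun Z t (α * t) := by
  obtain ⟨t0, a, ht0, ha, hs⟩ := Vale.Agent.P125.Char.strict_of_hasMarkovType Z p K hp hK h
  obtain ⟨s, hsdef⟩ : ∃ s : ℝ, s = Real.sqrt (max a 0) := ⟨_, rfl⟩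
  have hs0 : 0 ≤ s := by rw [hsdef]; exact Real.sqrt_nonneg _
  have hs2 : s ^ 2 = max a 0 := by rw [hsdef]; exact Real.sq_sqrt (le_max_right _ _)
  have hs1 : s < 1 := by
    have hm : max a 0 < 1 := max_lt ha one_pos
    by_contra hcon
    have h1 : (1 : ℝ) ≤ s := not_lt.mp hcon
    have h2 : (1 : ℝ) ≤ s ^ 2 := by nlinarith
    linarith
  have hF : HFun Z t0 (s * t0) := by
    intro S _ _ μ P hP f
    have hE : 0 ≤ ∑ i, ∑ j, μ i * P i j * ‖f j - f i‖ ^ 2 :=
      Finset.sum_nonneg fun i _ => Finset.sum_nonneg fun j _ =>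
        mul_nonneg (mul_nonneg (hP.1 i) (hP.2.2.1 i j)) (sq_nonneg _)
    refine le_trans (hs S μ P hP.1 hP.2.1 hP.2.2.1 hP.2.2.2.1 hP.2.2.2.2 f)
      (mul_le_mul_of_nonneg_right ?_ hE)
    rw [mul_pow, hs2]
    exact mul_le_mul_of_nonneg_right (le_max_left _ _) (sq_nonneg _)
  obtain ⟨n, hn⟩ := exists_pow_lt_of_lt_one hα hs1
  refine ⟨t0 ^ (n + 1), ?_, ?_⟩
  · calc 2 ≤ t0 := ht0
      _ = t0 ^ 1 := (pow_one _).symm
      _ ≤ t0 ^ (n + 1) := Nat.pow_le_pow_right (by omega) (by omega)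
  · refine hFun_mono Z _ _ _ (by positivity) ?_ (hFun_pow Z t0 _ hF (n + 1))
    rw [mul_pow]
    push_cast
    apply mul_le_mul_of_nonneg_right _ (by positivity)
    calc s ^ (n + 1) = s ^ n * s := pow_succ _ _
      _ ≤ s ^ n * 1 := mul_le_mul_of_nonneg_left hs1.le (pow_nonneg hs0 n)
      _ ≤ α := by rw [mul_one]; exact hn.le

end Vale.Agent.P125.TS
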